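import Vale.Agent.P245.H578.KerL
import Vale.Agent.P245.H991.TB1
import Vale.Agent.P245.H670.Flat

/-! # P245, line U: flats of the down field, parallelogram -/

set_option linter.unusedSectionVars false

open MeasureTheory Real Set Filter Topology

namespace Vale.Agent.P245.H578

open LS LS.Down E1
open H991 (D2 BS DEi IPi)

variable {n : ℕ} {μ : Measure (Fin n → ℝ)} [IsProbabilityMeasure μ] {R : ℝ}

theorem bm_sb {f : (Fin n → ℝ) → ℝ} (h : SB f) : BM f := ⟨h.measurable, h.bdd⟩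

/-- **(ker)**, integrated: `t E_q|Dg|² + t² E_q Σ⟨Dg_i, PV Dg_i⟩ ≤ |φ|²_{s'} - |g|²_s`,
`g = UL μ s' s φ` -/
theorem ker_int {ι : Type*} [Fintype ι] (hμ : CSupp μ R) {N : (Fin n → ℝ) → ℝ} (hN : Pos N)
    {s' s : ℝ} (hs' : 0 < s') (hs : s' < s) {φ : ι → (Fin n → ℝ) → ℝ} (hφ : ∀ i, SB (φ i)) :
    (s - s') * DEi μ s N (fun i => UL μ s' s (φ i))
        + (s - s') ^ 2 * BS μ s N (fun i => UL μ s' s (φ i))
      ≤ IPi μ s' (PH (s - s') N) φ φ
        - IPi μ s N (fun i => UL μ s' s (φ i)) (fun i => UL μ s' s (φ i)) := by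
  have hs0 : 0 < s := hs'.trans hs
  have hP : ∀ j k, SB (PV μ s j k) := fun j k => ((thR' n μ R hμ).2.1 s j k hs0).1
  have hU : ∀ {h : (Fin n → ℝ) → ℝ}, SB h → SB (UL μ s' s h) := fun {h} hh =>
    ((thR' n μ R hμ).2.2 s' s hs' hs.le).1 h hh
  have hg : ∀ i, SB (UL μ s' s (φ i)) := fun i => hU (hφ i)
  have hsq : ∀ i, SB (fun y => φ i y ^ 2) := fun i => by
    simpa only [sq] using (hφ i).mul (hφ i)
  -- the pieces
  have sb1 : ∀ i, SB fun y => N y * ∑ j, pd (UL μ s' s (φ i)) j y ^ 2 := fun i =>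
    hN.sb.mul (SB.sum _ fun j _ => by simpa only [sq] using ((hg i).pd j).mul ((hg i).pd j))
  have sb2 : ∀ i, SB fun y => N y * ∑ j, ∑ k, PV μ s j k y * pd (UL μ s' s (φ i)) j y
      * pd (UL μ s' s (φ i)) k y := fun i =>
    hN.sb.mul (SB.sum _ fun j _ => SB.sum _ fun k _ =>
      ((hP j k).mul ((hg i).pd j)).mul ((hg i).pd k))
  have sb3 : ∀ i, SB fun y => N y * (UL μ s' s (φ i) y * UL μ s' s (φ i) y) := fun i =>
    hN.sb.mul ((hg i).mul (hg i))
  have sb4 : ∀ i, SB fun y => UL μ s' s (fun y => φ i y ^ 2) y * N y := fun i =>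
    (hU (hsq i)).mul hN.sb
  have e1 : DEi μ s N (fun i => UL μ s' s (φ i))
      = ∑ i, EY μ s (fun y => N y * ∑ j, pd (UL μ s' s (φ i)) j y ^ 2) := by
    unfold H991.DEi
    rw [← EY_sum μ s _ fun i _ => sb1 i]
    simp only [Finset.mul_sum]
  have e2 : BS μ s N (fun i => UL μ s' s (φ i))
      = ∑ i, EY μ s (fun y => N y * ∑ j, ∑ k, PV μ s j k y * pd (UL μ s' s (φ i)) j y
        * pd (UL μ s' s (φ i)) k y) := by
    unfold H991.BS
    rw [← EY_sum μ s _ fun i _ => sb2 i]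
    simp only [Finset.mul_sum]
  have e3 : IPi μ s N (fun i => UL μ s' s (φ i)) (fun i => UL μ s' s (φ i))
      = ∑ i, EY μ s (fun y => N y * (UL μ s' s (φ i) y * UL μ s' s (φ i) y)) := by
    unfold H991.IPi
    rw [← EY_sum μ s _ fun i _ => sb3 i]
    simp only [Finset.mul_sum]
  have e4 : IPi μ s' (PH (s - s') N) φ φ
      = ∑ i, EY μ s (fun y => UL μ s' s (fun y => φ i y ^ 2) y * N y) := by
    have hd : ∀ i, EY μ s (fun y => UL μ s' s (fun y => φ i y ^ 2) y * N y)
        = EY μ s' (fun y => φ i y ^ 2 * PH (s - s') N y) := fun i =>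
      ((thK n μ R hμ).1 s' s hs' hs.le).2.2.2.2.2 _ _ (bm_sb (hsq i)) (bm_sb hN.sb)
    simp only [hd]
    unfold H991.IPi
    rw [← EY_sum μ s' _ fun i _ => (hsq i).mul (PH_sb hN.sb _)]
    congr 1
    funext y
    rw [Finset.mul_sum]
    exact Finset.sum_congr rfl fun i _ => by ring
  rw [e1, e2, e3, e4, Finset.mul_sum, Finset.mul_sum, ← Finset.sum_add_distrib,
    ← Finset.sum_sub_distrib]
  refine Finset.sum_le_sum fun i _ => ?_
  have h0 : 0 ≤ EY μ s (fun y => (UL μ s' s (fun y => φ i y ^ 2) y * N y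
      + (-1) * (N y * (UL μ s' s (φ i) y * UL μ s' s (φ i) y)))
      + ((-(s - s')) * (N y * ∑ j, pd (UL μ s' s (φ i)) j y ^ 2)
      + (-(s - s') ^ 2) * (N y * ∑ j, ∑ k, PV μ s j k y * pd (UL μ s' s (φ i)) j y
        * pd (UL μ s' s (φ i)) k y))) := by
    refine EY_nonneg _ _ fun y => ?_
    have h1 := ker_var_ge hμ (hφ i) hs' hs y
    have h2 := mul_nonneg (hN.pos y).le (sub_nonneg.2 h1)
    refine h2.trans (le_of_eq ?_)
    ring
  rw [EY_add μ s ((sb4 i).add ((sb3 i).const_mul _)) (((sb1 i).const_mul _).add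
    ((sb2 i).const_mul _)), EY_add μ s (sb4 i) ((sb3 i).const_mul _),
    EY_add μ s ((sb1 i).const_mul _) ((sb2 i).const_mul _), EY_const_mul, EY_const_mul,
    EY_const_mul] at h0
  linarith

/-- **(par)** -/
theorem par {N : (Fin n → ℝ) → ℝ} (hN : Pos N) {s κ a b c : ℝ}
    {f g : Fin n → (Fin n → ℝ) → ℝ} (hf : ∀ i, SB (f i)) (hg : ∀ i, SB (g i))
    (h1 : IP μ s N (fun i y => f i y + g i y) (fun i y => f i y + g i y)
      ≤ 2 * κ * DE μ s N (fun i y => f i y + g i y) + a)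
    (h2 : 2 * κ * DE μ s N f ≤ IP μ s N f f + b) (h3 : 2 * κ * DE μ s N g ≤ IP μ s N g g + b)
    (h4 : IP μ s N (fun i y => f i y - g i y) (fun i y => f i y - g i y) ≤ c) :
    2 * κ * DE μ s N (fun i y => f i y - g i y) ≤ a + 4 * b + c := by
  have sbI : ∀ {φ : Fin n → (Fin n → ℝ) → ℝ}, (∀ i, SB (φ i)) →
      SB fun y => N y * ∑ i, φ i y * φ i y := fun h =>
    hN.sb.mul (SB.sum _ fun i _ => (h i).mul (h i))
  have sbD : ∀ {φ : Fin n → (Fin n → ℝ) → ℝ}, (∀ i, SB (φ i)) →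
      SB fun y => N y * ∑ i, ∑ j, pd (φ i) j y ^ 2 := fun h =>
    hN.sb.mul (SB.sum _ fun i _ => SB.sum _ fun j _ => by
      simpa only [sq] using ((h i).pd j).mul ((h i).pd j))
  have hp : ∀ i, SB fun y => f i y + g i y := fun i => (hf i).add (hg i)
  have hm : ∀ i, SB fun y => f i y - g i y := fun i => (hf i).sub (hg i)
  have eI : IP μ s N (fun i y => f i y + g i y) (fun i y => f i y + g i y)
      + IP μ s N (fun i y => f i y - g i y) (fun i y => f i y - g i y)
      = 2 * IP μ s N f f + 2 * IP μ s N g g := by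
    unfold E1.IP
    rw [← EY_add μ s (sbI hp) (sbI hm), ← EY_const_mul, ← EY_const_mul,
      ← EY_add μ s ((sbI hf).const_mul 2) ((sbI hg).const_mul 2)]
    congr 1
    funext y
    simp only [Finset.mul_sum]
    rw [← Finset.sum_add_distrib, ← Finset.sum_add_distrib]
    exact Finset.sum_congr rfl fun i _ => by ring
  have pdp : ∀ i j y, pd (fun y => f i y + g i y) j y = pd (f i) j y + pd (g i) j y := fun i j y => by
    rw [pd_add (hf i).differentiable (hg i).differentiable]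
  have pdm : ∀ i j y, pd (fun y => f i y - g i y) j y = pd (f i) j y - pd (g i) j y := by
    intro i j y
    unfold pd
    rw [fderiv_fun_sub ((hf i).differentiable y) ((hg i).differentiable y)]
    rfl
  have eD : DE μ s N (fun i y => f i y + g i y) + DE μ s N (fun i y => f i y - g i y)
      = 2 * DE μ s N f + 2 * DE μ s N g := by
    unfold E1.DE
    rw [← EY_add μ s (sbD hp) (sbD hm), ← EY_const_mul, ← EY_const_mul,
      ← EY_add μ s ((sbD hf).const_mul 2) ((sbD hg).const_mul 2)]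
    congr 1
    funext y
    simp only [Finset.mul_sum]
    rw [← Finset.sum_add_distrib, ← Finset.sum_add_distrib]
    refine Finset.sum_congr rfl fun i _ => ?_
    rw [← Finset.sum_add_distrib, ← Finset.sum_add_distrib]
    refine Finset.sum_congr rfl fun j _ => ?_
    rw [pdp, pdm]
    ring
  have e5 : 2 * κ * DE μ s N (fun i y => f i y - g i y)
      = 2 * (2 * κ * DE μ s N f) + 2 * (2 * κ * DE μ s N g)
        - 2 * κ * DE μ s N (fun i y => f i y + g i y) := by
    linear_combination 2 * κ * eD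
  rw [e5]
  linarith

/-- **(fl)**: `s BS(f) ≤ (1 + ...)`: parallelogram for the flats, weights `2, 2` -/
theorem bs_le {ρ0 : (Fin n → ℝ) → ℝ} (hρ : LCd ρ0) [hp : IsProbabilityMeasure (mu ρ0)]
    (hc : CSupp (mu ρ0) R) {s : ℝ} (hs : 0 < s) {N : (Fin n → ℝ) → ℝ} (hN : Pos N)
    {f g : Fin n → (Fin n → ℝ) → ℝ} (hf : ∀ i, SB (f i)) (hg : ∀ i, SB (g i)) :
    BS (mu ρ0) s N f ≤ 2 * BS (mu ρ0) s N g
      + 2 / s * DE (mu ρ0) s N (fun i y => f i y - g i y) := by
  have pdm : ∀ i j, pd (fun y => f i y - g i y) j = fun y => pd (f i) j y - pd (g i) j y := by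
    intro i j
    funext y
    unfold pd
    rw [fderiv_fun_sub ((hf i).differentiable y) ((hg i).differentiable y)]
    rfl
  have sbm : ∀ i j, SB fun y => pd (f i) j y - pd (g i) j y := fun i j =>
    ((hf i).pd j).sub ((hg i).pd j)
  have eD : DE (mu ρ0) s N (fun i y => f i y - g i y)
      = ∑ k, IP (mu ρ0) s N (fun i y => pd (f k) i y - pd (g k) i y)
        (fun i y => pd (f k) i y - pd (g k) i y) := by
    unfold E1.DE E1.IP
    rw [← EY_sum _ _ _ fun k _ => hN.sb.mul (SB.sum _ fun i _ => (sbm k i).mul (sbm k i))]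
    congr 1
    funext y
    rw [Finset.mul_sum]
    refine Finset.sum_congr rfl fun k _ => ?_
    congr 1
    refine Finset.sum_congr rfl fun i _ => ?_
    rw [pdm]
    exact sq _
  rw [H670.BS_eq hc hs hN hf, H670.BS_eq hc hs hN hg, eD, Finset.mul_sum, Finset.mul_sum,
    ← Finset.sum_add_distrib]
  refine Finset.sum_le_sum fun k _ => ?_
  have h := H670.bi_sub_le hρ hc hs hN (φ := fun i => pd (g k) i)
    (ψ := fun i y => pd (f k) i y - pd (g k) i y) (fun i => (hg k).pd i)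
    (fun i => sbm k i) 1 1
  have e : (fun (i : Fin n) => pd (f k) i)
      = fun i y => 1 * pd (g k) i y + 1 * (pd (f k) i y - pd (g k) i y) := by
    funext i y
    ring
  rw [e]
  refine h.trans (le_of_eq ?_)
  ring

end Vale.Agent.P245.H578
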