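import Vale.Agent.P245.Bdl.B2

/-!
P245, line U, row (D) (helper578): the two variance inequalities of the kernel `UL`.

For `0 < s < r`, `φ` smooth with bounded derivatives, every `y`:
* `ker_var_ge`: `(r-s) |D UL φ|² + (r-s)² ⟨D UL φ, D²V_r D UL φ⟩ ≤ UL (φ²) - (UL φ)²`
  (Cauchy-Schwarz of `φ(Y_s)` against a linear function of `Y_s` under the posterior);
* `PH_bessel`: `u |PH_u Dφ|² ≤ PH_u (φ²) - (PH_u φ)²`.
-/

open MeasureTheory Real Set Filter Topology
open scoped ENNReal ContDiff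

namespace Vale.Agent.P245.H578

open LS LS.Down E1

variable {n : ℕ}

theorem eg_lin (b : Fin n → ℝ) : EG1 fun z : Fin n → ℝ => ∑ i, b i * z i := by
  refine ⟨1 + ∑ i, |b i|, by positivity, fun z => ?_⟩
  have hS0 : 0 ≤ ∑ i, |z i| := Finset.sum_nonneg fun j _ => abs_nonneg _
  have hB0 : 0 ≤ ∑ i, |b i| := Finset.sum_nonneg fun j _ => abs_nonneg _
  have h1 : |∑ i, b i * z i| ≤ (∑ i, |b i|) * ∑ i, |z i| := by
    refine (Finset.abs_sum_le_sum_abs _ _).trans ?_
    rw [Finset.mul_sum]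
    refine Finset.sum_le_sum fun i _ => ?_
    rw [abs_mul]
    exact mul_le_mul_of_nonneg_right (Finset.single_le_sum (f := fun j => |b j|)
      (fun j _ => abs_nonneg _) (Finset.mem_univ i)) (abs_nonneg _)
  have h2 : ∑ i, |z i| ≤ exp ((1 + ∑ i, |b i|) * ∑ i, |z i|) := by
    have h3 : ∑ i, |z i| ≤ (1 + ∑ i, |b i|) * ∑ i, |z i| := by nlinarith
    linarith [add_one_le_exp ((1 + ∑ i, |b i|) * ∑ i, |z i|)]
  calc |∑ i, b i * z i| ≤ (∑ i, |b i|) * ∑ i, |z i| := h1
    _ ≤ (1 + ∑ i, |b i|) * exp ((1 + ∑ i, |b i|) * ∑ i, |z i|) :=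
      mul_le_mul (by linarith) h2 hS0 (by linarith)

theorem int_lin (b : Fin n → ℝ) : Integrable (fun z : Fin n → ℝ => ∑ i, b i * z i) (gsn n) :=
  (eg_lin b).integrable (by fun_prop : Continuous fun z : Fin n → ℝ =>
    ∑ i, b i * z i).aestronglyMeasurable

theorem mean_lin (b : Fin n → ℝ) : ∫ z : Fin n → ℝ, ∑ i, b i * z i ∂(gsn n) = 0 := by
  rw [integral_finsetSum _ fun i _ => (((EG1.coord i).integrable
    (continuous_apply i).aestronglyMeasurable).const_mul (b i))]
  refine Finset.sum_eq_zero fun i _ => ?_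
  rw [integral_const_mul, gauss_mean, mul_zero]

theorem int_coord_lin (b : Fin n → ℝ) (i : Fin n) :
    Integrable (fun z : Fin n → ℝ => z i * ∑ j, b j * z j) (gsn n) :=
  ((eg_lin b).mul_coord i).integrable (by fun_prop : Continuous fun z : Fin n → ℝ =>
    z i * ∑ j, b j * z j).aestronglyMeasurable

theorem coord_lin (b : Fin n → ℝ) (i : Fin n) :
    ∫ z : Fin n → ℝ, z i * ∑ j, b j * z j ∂(gsn n) = b i := by
  have h : ∀ z : Fin n → ℝ, fderiv ℝ (fun z : Fin n → ℝ => ∑ j, b j * z j) z (Pi.single i 1)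
      = b i := by
    intro z
    have e : (fun z : Fin n → ℝ => ∑ j, b j * z j)
        = (∑ j, b j • (ContinuousLinearMap.proj (R := ℝ) j : (Fin n → ℝ) →L[ℝ] ℝ)) := by
      funext z
      simp [ContinuousLinearMap.sum_apply]
    rw [e, ContinuousLinearMap.fderiv]
    simp [ContinuousLinearMap.sum_apply, Pi.single_apply]
  have := gauss_ibp (φ := fun z : Fin n → ℝ => ∑ j, b j * z j) (by fun_prop) (eg_lin b) i
    (by simp_rw [h]; exact EG1.const _) (by simp_rw [h]; exact aestronglyMeasurable_const)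
  simp_rw [h] at this
  simpa using this

theorem int_lin_sq (b : Fin n → ℝ) :
    Integrable (fun z : Fin n → ℝ => (∑ i, b i * z i) ^ 2) (gsn n) := by
  have e : (fun z : Fin n → ℝ => (∑ i, b i * z i) ^ 2)
      = fun z => ∑ i, b i * (z i * ∑ j, b j * z j) := by
    funext z
    rw [sq, Finset.sum_mul]
    exact Finset.sum_congr rfl fun i _ => by ring
  rw [e]
  exact integrable_finsetSum _ fun i _ => (int_coord_lin b i).const_mul (b i)

theorem lin_sq (b : Fin n → ℝ) :
    ∫ z : Fin n → ℝ, (∑ i, b i * z i) ^ 2 ∂(gsn n) = ∑ i, b i ^ 2 := by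
  have e : (fun z : Fin n → ℝ => (∑ i, b i * z i) ^ 2)
      = fun z => ∑ i, b i * (z i * ∑ j, b j * z j) := by
    funext z
    rw [sq, Finset.sum_mul]
    exact Finset.sum_congr rfl fun i _ => by ring
  rw [e, integral_finsetSum _ fun i _ => (int_coord_lin b i).const_mul (b i)]
  refine Finset.sum_congr rfl fun i _ => ?_
  rw [integral_const_mul, coord_lin]
  ring

/-- quadratic test against a linear function, Gaussian kernel -/
theorem PH_quad {N : (Fin n → ℝ) → ℝ} (hN : SB N) {u : ℝ} (hu : 0 ≤ u) (c b : Fin n → ℝ) (L : ℝ) :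
    2 * L * PH u N c + 2 * u * ∑ i, b i * PH u (pd N i) c - L ^ 2 - u * ∑ i, b i ^ 2
      ≤ PH u (fun y => N y ^ 2) c := by
  obtain ⟨C, hC⟩ := hN.bdd
  have hNm : Measurable N := hN.measurable
  have hN2 : SB fun y => N y ^ 2 := by
    simpa only [sq] using hN.mul hN
  obtain ⟨C', hC'⟩ := hN2.bdd
  have i1 : Integrable (fun z => N (c + √u • z) ^ 2) (gsn n) :=
    PH_integrable hN2.measurable hC' u c
  have i2 : Integrable (fun z => N (c + √u • z)) (gsn n) := PH_integrable hNm hC u c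
  have i3 : ∀ i, Integrable (fun z => z i * N (c + √u • z)) (gsn n) := fun i =>
    integrable_coord_mul (sb_cbd hN) (by fun_prop) i
  have j1 : Integrable (fun z => 2 * L * N (c + √u • z)) (gsn n) := i2.const_mul (2 * L)
  have j2 : Integrable (fun z : Fin n → ℝ => ∑ i, (2 * √u * b i) * (z i * N (c + √u • z)))
      (gsn n) :=
    integrable_finsetSum Finset.univ fun i _ => (i3 i).const_mul (2 * √u * b i)
  have j3 : Integrable (fun z : Fin n → ℝ => 2 * √u * L * ∑ i, b i * z i) (gsn n) :=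
    (int_lin b).const_mul (2 * √u * L)
  have j4 : Integrable (fun z : Fin n → ℝ => u * (∑ i, b i * z i) ^ 2) (gsn n) :=
    (int_lin_sq b).const_mul u
  have j5 : Integrable (fun _ : Fin n → ℝ => L ^ 2) (gsn n) := integrable_const _
  have k1 : Integrable (fun z : Fin n → ℝ => 2 * L * N (c + √u • z)
      + ∑ i, (2 * √u * b i) * (z i * N (c + √u • z))) (gsn n) := j1.add j2
  have k2 : Integrable (fun z : Fin n → ℝ => 2 * L * N (c + √u • z)
      + ∑ i, (2 * √u * b i) * (z i * N (c + √u • z)) - 2 * √u * L * ∑ i, b i * z i) (gsn n) :=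
    k1.sub j3
  have k3 : Integrable (fun z : Fin n → ℝ => 2 * L * N (c + √u • z)
      + ∑ i, (2 * √u * b i) * (z i * N (c + √u • z)) - 2 * √u * L * ∑ i, b i * z i
      - u * (∑ i, b i * z i) ^ 2) (gsn n) := k2.sub j4
  have k4 : Integrable (fun z : Fin n → ℝ => 2 * L * N (c + √u • z)
      + ∑ i, (2 * √u * b i) * (z i * N (c + √u • z)) - 2 * √u * L * ∑ i, b i * z i
      - u * (∑ i, b i * z i) ^ 2 - L ^ 2) (gsn n) := k3.sub j5
  have hp : ∀ z : Fin n → ℝ, 2 * L * N (c + √u • z)
      + ∑ i, (2 * √u * b i) * (z i * N (c + √u • z)) - 2 * √u * L * ∑ i, b i * z i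
      - u * (∑ i, b i * z i) ^ 2 - L ^ 2 ≤ N (c + √u • z) ^ 2 := by
    intro z
    have e : ∑ i, (2 * √u * b i) * (z i * N (c + √u • z))
        = 2 * √u * (∑ i, b i * z i) * N (c + √u • z) := by
      rw [Finset.mul_sum, Finset.sum_mul]
      exact Finset.sum_congr rfl fun i _ => by ring
    have hsu : √u * √u = u := mul_self_sqrt hu
    rw [e]
    have h0 := sq_nonneg (N (c + √u • z) - L - √u * ∑ i, b i * z i)
    have e2 : (N (c + √u • z) - L - √u * ∑ i, b i * z i) ^ 2
        = N (c + √u • z) ^ 2 + L ^ 2 + (√u * √u) * (∑ i, b i * z i) ^ 2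
          - 2 * L * N (c + √u • z) - 2 * √u * (∑ i, b i * z i) * N (c + √u • z)
          + 2 * √u * L * ∑ i, b i * z i := by ring
    rw [e2, hsu] at h0
    linarith
  have h5 := integral_mono k4 i1 hp
  rw [integral_sub k3 j5, integral_sub k2 j4, integral_sub k1 j3, integral_add j1 j2,
    integral_const_mul, integral_const_mul, integral_const_mul, mean_lin, lin_sq,
    integral_finsetSum _ fun i _ => (i3 i).const_mul (2 * √u * b i)] at h5
  have e5 : ∀ i, ∫ z, (2 * √u * b i) * (z i * N (c + √u • z)) ∂(gsn n)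
      = 2 * u * (b i * PH u (pd N i) c) := by
    intro i
    rw [integral_const_mul, ibp (sb_diff hN) (sb_cbd hN) i (sb_cbd (hN.pd i)) c (√u)]
    unfold PH
    have : √u * √u = u := mul_self_sqrt hu
    linear_combination (2 * b i * ∫ z, pd N i (c + √u • z) ∂(gsn n)) * this
  simp only [e5, integral_const, probReal_univ, smul_eq_mul, one_mul, mul_zero, sub_zero] at h5
  rw [← Finset.mul_sum] at h5
  change 2 * L * PH u N c + _ - _ - _ ≤ PH u (fun y => N y ^ 2) c at h5
  linarith

/-- Bessel inequality for the Gaussian kernel -/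
theorem PH_bessel {N : (Fin n → ℝ) → ℝ} (hN : SB N) {u : ℝ} (hu : 0 ≤ u) (c : Fin n → ℝ) :
    u * ∑ i, PH u (pd N i) c ^ 2 ≤ PH u (fun y => N y ^ 2) c - PH u N c ^ 2 := by
  have h := PH_quad hN hu c (fun i => PH u (pd N i) c) (PH u N c)
  simp only [← sq] at h
  linarith

/-- quadratic test against a linear function of `(X, Y_s)`, posterior kernel -/
theorem UL_quad {μ : Measure (Fin n → ℝ)} [IsProbabilityMeasure μ] {R : ℝ} (h : CSupp μ R)
    {N : (Fin n → ℝ) → ℝ} (hN : SB N) {s r : ℝ} (hs : 0 < s)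
    (hsr : s < r) (y a b : Fin n → ℝ) (L : ℝ) :
    2 * L * UL μ s r N y + 2 * ∑ i, a i * UL μ s r (fun y => N y * XB μ s i y) y
        + 2 * (s * (1 - s / r)) * ∑ i, b i * UL μ s r (pd N i) y
        - Mf μ (fun x => (L + ∑ i, a i * x i) ^ 2) (1 / r, (1 / r) • y)
        - s * (1 - s / r) * ∑ i, b i ^ 2
      ≤ UL μ s r (fun y => N y ^ 2) y := by
  have hr : 0 < r := hs.trans hsr
  set u := s * (1 - s / r) with hu
  have hu0 : 0 ≤ u := by
    have : s / r ≤ 1 := (div_le_one hr).2 hsr.le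
    exact mul_nonneg hs.le (by linarith)
  set p : ℝ × (Fin n → ℝ) := (1 / r, (1 / r) • y) with hp
  have hN2 : SB fun y => N y ^ 2 := by
    simpa only [sq] using hN.mul hN
  have hpt : ∀ x : Fin n → ℝ,
      2 * L * (1 * phi s N x r y) + 2 * (∑ i, a i * (x i * phi s N x r y))
        + 2 * u * (∑ i, b i * (1 * phi s (pd N i) x r y))
        - (L + ∑ i, a i * x i) ^ 2 - u * ∑ i, b i ^ 2 ≤ 1 * phi s (fun y => N y ^ 2) x r y := by
    intro x
    have h1 := PH_quad hN hu0 ((1 - s / r) • x + (s / r) • y) b (L + ∑ i, a i * x i)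
    have e : ∑ i, a i * (x i * phi s N x r y) = (∑ i, a i * x i) * phi s N x r y := by
      rw [Finset.sum_mul]; exact Finset.sum_congr rfl fun i _ => by ring
    rw [e]
    simp only [one_mul]
    unfold phi
    rw [← hu]
    linarith
  have aN : ∀ {f : (Fin n → ℝ) → ℝ}, SB f → Adm μ (fun x => phi s f x r y) := fun hf =>
    Adm.of_continuous h (cont_phi_x (sb_cbd hf) s y)
  have a1 : Adm μ (fun x => 1 * phi s N x r y) := (aN hN).const_mul 1
  have a2 : ∀ i, Adm μ (fun x => x i * phi s N x r y) := fun i =>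
    (h.adm_coord i).mul (aN hN)
  have a3 : ∀ i, Adm μ (fun x => 1 * phi s (pd N i) x r y) := fun i =>
    (aN (hN.pd i)).const_mul 1
  have a4 : Adm μ (fun x => (L + ∑ i, a i * x i) ^ 2) := Adm.of_continuous h (by fun_prop)
  have a5 : Adm μ (fun x => 1 * phi s (fun y => N y ^ 2) x r y) := (aN hN2).const_mul 1
  have a6 : Adm μ (fun _ : Fin n → ℝ => u * ∑ i, b i ^ 2) := Adm.const μ _
  have b2 : Adm μ (fun x => ∑ i, a i * (x i * phi s N x r y)) :=
    Adm.sum _ fun i _ => (a2 i).const_mul (a i)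
  have b3 : Adm μ (fun x => ∑ i, b i * (1 * phi s (pd N i) x r y)) :=
    Adm.sum _ fun i _ => (a3 i).const_mul (b i)
  have c1 := (a1.const_mul (2 * L)).add (b2.const_mul 2)
  have c2 := c1.add (b3.const_mul (2 * u))
  have c3 := c2.sub a4
  have key := Mf_mono h (c3.sub a6) a5 (Eventually.of_forall hpt) p
  rw [Mf_sub h c3 a6, Mf_sub h c2 a4, Mf_add h c1 (b3.const_mul (2 * u)),
    Mf_add h (a1.const_mul (2 * L)) (b2.const_mul 2), Mf_const h] at key
  simp only [Mf_const_mul] at key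
  rw [Mf_sum h Finset.univ fun i _ => (a2 i).const_mul (a i),
    Mf_sum h Finset.univ fun i _ => (a3 i).const_mul (b i)] at key
  simp only [Mf_const_mul] at key
  have f1' : ∀ {f : (Fin n → ℝ) → ℝ}, Mf μ (fun x => phi s f x r y) p = UL μ s r f y := by
    intro f
    have f1 : Mf μ (fun x => 1 * phi s f x r y) p = UL μ s r f y := by
      rw [UL_eq_UP2 s hr, UP2_eq_Bf]
      rfl
    rw [← f1]
    simp only [one_mul]
  have f2 : ∀ i, Mf μ (fun x => x i * phi s N x r y) p
      = UL μ s r (fun y => N y * XB μ s i y) y := fun i =>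
    congrFun (Bf_coord_eq h hN hs hsr i) y
  simp only [f1', f2, one_mul] at key
  linarith

/-- **(D)**: the variance of `φ(Y_s)` given `Y_r` dominates the gradient of the conditional
expectation, with the curvature term -/
theorem ker_var_ge {μ : Measure (Fin n → ℝ)} [IsProbabilityMeasure μ] {R : ℝ} (h : CSupp μ R)
    {N : (Fin n → ℝ) → ℝ} (hN : SB N) {s r : ℝ} (hs : 0 < s)
    (hsr : s < r) (y : Fin n → ℝ) :
    (r - s) * ∑ i, pd (UL μ s r N) i y ^ 2
        + (r - s) ^ 2 * ∑ i, ∑ j, PV μ r i j y * pd (UL μ s r N) i y * pd (UL μ s r N) j y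
      ≤ UL μ s r (fun y => N y ^ 2) y - UL μ s r N y ^ 2 := by
  have hr : 0 < r := hs.trans hsr
  set v : Fin n → ℝ := fun i => pd (UL μ s r N) i y with hv
  set A := UL μ s r N y with hA
  have hg : ∀ i, v i = 1 / r * (UL μ s r (fun y' => N y' * XB μ s i y') y - A * XB μ r i y
      + s * UL μ s r (pd N i) y) := by
    intro i
    have := pd_UL' (thUL n) h hs hN (ρ := r) (le_of_lt hsr) i
    rw [hv]
    simp only [this]
    rfl
  set k : ℝ := 1 - s / r with hk
  have hq := UL_quad h hN hs hsr y (fun i => k * v i) v (A - k * ∑ i, v i * XB μ r i y)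
  -- the variance of the linear function of `X`
  have hX : ∀ i, Mf μ (fun x => x i) (1 / r, (1 / r) • y) = XB μ r i y := fun i => rfl
  have hlin : Mf μ (fun x => ∑ i, v i * x i) (1 / r, (1 / r) • y) = ∑ i, v i * XB μ r i y := by
    rw [Mf_sum h Finset.univ fun i _ => (h.adm_coord i).const_mul (v i)]
    exact Finset.sum_congr rfl fun i _ => by rw [Mf_const_mul, hX]
  have hadm : Adm μ (fun x => ∑ i, v i * x i) := Adm.lin h v
  set m := ∑ i, v i * XB μ r i y with hm
  have hV : Mf μ (fun x => ((A - k * m) + ∑ i, (k * v i) * x i) ^ 2) (1 / r, (1 / r) • y)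
      = A ^ 2 + k ^ 2 * Vf μ (fun x => ∑ i, v i * x i) (1 / r, (1 / r) • y) := by
    have e : (fun x : Fin n → ℝ => ((A - k * m) + ∑ i, (k * v i) * x i) ^ 2)
        = fun x => (k ^ 2 * (∑ i, v i * x i) ^ 2 + (2 * (A - k * m) * k) * (∑ i, v i * x i))
          + (A - k * m) ^ 2 := by
      funext x
      have e1 : ∑ i, (k * v i) * x i = k * ∑ i, v i * x i := by
        rw [Finset.mul_sum]; exact Finset.sum_congr rfl fun i _ => by ring
      rw [e1]; ring
    rw [e, Mf_add h ((hadm.sq.const_mul (k ^ 2)).add (hadm.const_mul (2 * (A - k * m) * k)))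
      (Adm.const μ _), Mf_add h (hadm.sq.const_mul (k ^ 2)) (hadm.const_mul _), Mf_const_mul,
      Mf_const_mul, Mf_const h, hlin]
    unfold Vf
    rw [hlin]
    ring
  rw [hV] at hq
  have hP : ∑ i, ∑ j, PV μ r i j y * v i * v j
      = 1 / r * ∑ i, v i ^ 2 - 1 / r ^ 2 * Vf μ (fun x => ∑ i, v i * x i) (1 / r, (1 / r) • y) := by
    rw [← Pq_self h]
    unfold Pq
    exact Finset.sum_congr rfl fun i _ => Finset.sum_congr rfl fun j _ => by rw [PV_eq' h hr]
  set W := Vf μ (fun x => ∑ i, v i * x i) (1 / r, (1 / r) • y) with hW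
  set Q := ∑ i, v i ^ 2 with hQ
  have hc : ∑ i, (k * v i) * UL μ s r (fun y => N y * XB μ s i y) y
      + s * k * ∑ i, v i * UL μ s r (pd N i) y = k * r * Q + k * A * m := by
    rw [hQ, hm, Finset.mul_sum, Finset.mul_sum, Finset.mul_sum, ← Finset.sum_add_distrib,
      ← Finset.sum_add_distrib]
    refine Finset.sum_congr rfl fun i _ => ?_
    have := hg i
    have h1 : r * v i = UL μ s r (fun y' => N y' * XB μ s i y') y - A * XB μ r i y
      + s * UL μ s r (pd N i) y := by
      rw [this]; field_simp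
    have h2 : UL μ s r (fun y' => N y' * XB μ s i y') y
        = r * v i + A * XB μ r i y - s * UL μ s r (pd N i) y := by linarith
    rw [h2]
    ring
  have hrne := hr.ne'
  have hkr : k * r = r - s := by rw [hk]; field_simp
  change (r - s) * Q + (r - s) ^ 2 * ∑ i, ∑ j, PV μ r i j y * v i * v j ≤ _
  rw [hP]
  have e1 : (r - s) ^ 2 * (1 / r * Q - 1 / r ^ 2 * W) = (r - s) * k * Q - k ^ 2 * W := by
    rw [hk]; field_simp
  rw [e1]
  have e2 : s * k + (r - s) * k = r - s := by rw [hk]; field_simp; ring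
  rw [← hA] at hq
  have hq' : 2 * (A - k * m) * A + 2 * (∑ i, (k * v i) * UL μ s r (fun y => N y * XB μ s i y) y
      + s * k * ∑ i, v i * UL μ s r (pd N i) y) - (A ^ 2 + k ^ 2 * W) - s * k * Q
        ≤ UL μ s r (fun y => N y ^ 2) y := by
    refine le_trans (le_of_eq ?_) hq
    ring
  rw [hc] at hq'
  have e3 : 2 * (k * r) * Q - s * k * Q = (r - s) * Q + (r - s) * k * Q := by
    rw [hkr]; linear_combination (-Q) * e2
  linarith

end Vale.Agent.P245.H578
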